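import Mathlib

namespace Vale.Agent.Results.P201.NoUPQuotient

open MonoidAlgebra

universe u v

/-- A group is torsion-free if the identity is its only element of finite order. -/
def TorsionFree (G : Type u) [Group G] : Prop := ∀ g : G, IsOfFinOrder g → g = 1

/-- Every homomorphism from `H` to a group with the unique-product property is trivial. -/
def NoUPQuot (H : Type u) [Group H] : Prop :=
  ∀ (Q : Type u) [Group Q] [UniqueProds Q] (φ : H →* Q) (h : H), φ h = 1

variable {K : Type v} [Field K]

noncomputable def fib {H Q : Type u} [Group H] [Group Q] (φ : H →* Q) (q : Q)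
    (x : MonoidAlgebra K H) : MonoidAlgebra K H := by
  classical exact .ofCoeff (x.coeff.filter (fun h => φ h = q))

noncomputable def cofib {H Q : Type u} [Group H] [Group Q] (φ : H →* Q) (q : Q)
    (x : MonoidAlgebra K H) : MonoidAlgebra K H := by
  classical exact .ofCoeff (x.coeff.filter (fun h => ¬ φ h = q))

lemma fib_add_cofib {H Q : Type u} [Group H] [Group Q] (φ : H →* Q) (q : Q)
    (x : MonoidAlgebra K H) : fib φ q x + cofib φ q x = x := by
  classical
  ext : 1
  simp only [fib, cofib, coeff_add]
  exact Finsupp.filter_add_filter_not _ _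

lemma coeff_mul_eq_zero {H : Type u} [Group H] (x y : MonoidAlgebra K H) (h : H)
    (hh : ∀ s ∈ x.coeff.support, ∀ t ∈ y.coeff.support, s * t ≠ h) : (x * y).coeff h = 0 := by
  classical
  by_contra hne
  have : h ∈ (x * y).coeff.support := Finsupp.mem_support_iff.2 hne
  have := support_coeff_mul_subset x y this
  obtain ⟨s, hs, t, ht, rfl⟩ := Finset.mem_mul.1 this
  exact hh s hs t ht rfl

lemma mem_supp_fib {H Q : Type u} [Group H] [Group Q] (φ : H →* Q) (q : Q)
    (x : MonoidAlgebra K H) (s : H) :
    s ∈ (fib φ q x).coeff.support ↔ s ∈ x.coeff.support ∧ φ s = q := by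
  classical
  simp [fib, Finsupp.support_filter, Finset.mem_filter]

lemma mem_supp_cofib {H Q : Type u} [Group H] [Group Q] (φ : H →* Q) (q : Q)
    (x : MonoidAlgebra K H) (s : H) :
    s ∈ (cofib φ q x).coeff.support ↔ s ∈ x.coeff.support ∧ φ s ≠ q := by
  classical
  simp [cofib, Finsupp.support_filter, Finset.mem_filter]

lemma key {H Q : Type u} [Group H] [Group Q] [UniqueProds Q] (φ : H →* Q)
    (a b : MonoidAlgebra K H) (ha : a ≠ 0) (hb : b ≠ 0) (hab : a * b = 0) :
    ∃ q1 q2 : Q, fib φ q1 a ≠ 0 ∧ fib φ q2 b ≠ 0 ∧ fib φ q1 a * fib φ q2 b = 0 := by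
  classical
  have hA : (a.coeff.support.image φ).Nonempty := by
    simpa [Finsupp.support_nonempty_iff] using ha
  have hB : (b.coeff.support.image φ).Nonempty := by
    simpa [Finsupp.support_nonempty_iff] using hb
  obtain ⟨q1, h1, q2, h2, hu⟩ := UniqueProds.uniqueMul_of_nonempty hA hB
  refine ⟨q1, q2, ?_, ?_, ?_⟩
  · obtain ⟨x, hx, rfl⟩ := Finset.mem_image.1 h1
    intro h0
    have := congrArg (fun z => z.coeff x) h0
    simp [fib] at this
    exact (Finsupp.mem_support_iff.1 hx) this
  · obtain ⟨x, hx, rfl⟩ := Finset.mem_image.1 h2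
    intro h0
    have := congrArg (fun z => z.coeff x) h0
    simp [fib] at this
    exact (Finsupp.mem_support_iff.1 hx) this
  · ext : 1
    ext h
    simp only [coeff_zero, Finsupp.coe_zero, Pi.zero_apply]
    by_cases hh : φ h = q1 * q2
    · have e : a * b = fib φ q1 a * fib φ q2 b + fib φ q1 a * cofib φ q2 b
          + cofib φ q1 a * fib φ q2 b + cofib φ q1 a * cofib φ q2 b := by
        conv_lhs => rw [← fib_add_cofib φ q1 a, ← fib_add_cofib φ q2 b]
        rw [add_mul, mul_add, mul_add]; abel
      have e2 := congrArg (fun z => z.coeff h) e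
      simp only [hab, coeff_zero, Finsupp.coe_zero, Pi.zero_apply, coeff_add, Finsupp.coe_add,
        Pi.add_apply] at e2
      have z1 : (fib φ q1 a * cofib φ q2 b).coeff h = 0 := by
        apply coeff_mul_eq_zero
        intro s hs t ht hst
        rw [mem_supp_fib] at hs
        rw [mem_supp_cofib] at ht
        have := hu (Finset.mem_image_of_mem φ hs.1) (Finset.mem_image_of_mem φ ht.1)
          (by rw [← map_mul, hst, hh])
        exact ht.2 this.2
      have z2 : (cofib φ q1 a * fib φ q2 b).coeff h = 0 := by
        apply coeff_mul_eq_zero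
        intro s hs t ht hst
        rw [mem_supp_cofib] at hs
        rw [mem_supp_fib] at ht
        have := hu (Finset.mem_image_of_mem φ hs.1) (Finset.mem_image_of_mem φ ht.1)
          (by rw [← map_mul, hst, hh])
        exact hs.2 this.1
      have z3 : (cofib φ q1 a * cofib φ q2 b).coeff h = 0 := by
        apply coeff_mul_eq_zero
        intro s hs t ht hst
        rw [mem_supp_cofib] at hs
        rw [mem_supp_cofib] at ht
        have := hu (Finset.mem_image_of_mem φ hs.1) (Finset.mem_image_of_mem φ ht.1)
          (by rw [← map_mul, hst, hh])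
        exact hs.2 this.1
      rw [z1, z2, z3] at e2
      simpa using e2.symm
    · apply coeff_mul_eq_zero
      intro s hs t ht hst
      rw [mem_supp_fib] at hs ht
      apply hh
      rw [← hst, map_mul, hs.2, ht.2]

def ZD (K : Type v) [Field K] (G : Type u) [Group G] (n : ℕ) : Prop :=
  ∃ a b : MonoidAlgebra K G, a ≠ 0 ∧ b ≠ 0 ∧ a * b = 0 ∧
    a.coeff.support.card + b.coeff.support.card = n

lemma normalize {G : Type u} [Group G] {n : ℕ} (h : ZD K G n) :
    ∃ a b : MonoidAlgebra K G, a ≠ 0 ∧ b ≠ 0 ∧ a * b = 0 ∧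
    a.coeff.support.card + b.coeff.support.card = n ∧ (1 : G) ∈ a.coeff.support ∧
      (1 : G) ∈ b.coeff.support := by
  classical
  obtain ⟨a, b, ha, hb, hab, hn⟩ := h
  obtain ⟨x, hx⟩ : a.coeff.support.Nonempty := by
    simpa [Finsupp.support_nonempty_iff] using ha
  obtain ⟨y, hy⟩ : b.coeff.support.Nonempty := by
    simpa [Finsupp.support_nonempty_iff] using hb
  have sa : (single x⁻¹ (1 : K) * a).coeff.support = a.coeff.support.map (mulLeftEmbedding x⁻¹) :=
    support_coeff_single_mul a 1 (by simp) _
  have sb : (b * single y⁻¹ (1 : K)).coeff.support = b.coeff.support.map (mulRightEmbedding y⁻¹) :=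
    support_coeff_mul_single b 1 (by simp) _
  have ma : (1 : G) ∈ (single x⁻¹ (1 : K) * a).coeff.support := by
    rw [sa]; exact Finset.mem_map.2 ⟨x, hx, by simp⟩
  have mb : (1 : G) ∈ (b * single y⁻¹ (1 : K)).coeff.support := by
    rw [sb]; exact Finset.mem_map.2 ⟨y, hy, by simp⟩
  refine ⟨single x⁻¹ 1 * a, b * single y⁻¹ 1, ?_, ?_, ?_, ?_, ma, mb⟩
  · intro h0; rw [h0] at ma; simp at ma
  · intro h0; rw [h0] at mb; simp at mb
  · calc single x⁻¹ 1 * a * (b * single y⁻¹ 1) = single x⁻¹ 1 * (a * b) * single y⁻¹ 1 := by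
          simp only [mul_assoc]
      _ = 0 := by rw [hab]; simp
  · rw [sa, sb, Finset.card_map, Finset.card_map, hn]

lemma restrict {G : Type u} [Group G] (a b : MonoidAlgebra K G) (ha : a ≠ 0) (hb : b ≠ 0)
    (hab : a * b = 0) (H : Subgroup G) (hHa : ↑a.coeff.support ⊆ (H : Set G))
    (hHb : ↑b.coeff.support ⊆ (H : Set G)) :
    ∃ a' b' : MonoidAlgebra K H, a' ≠ 0 ∧ b' ≠ 0 ∧ a' * b' = 0 ∧
      a'.coeff.support.card = a.coeff.support.card ∧ b'.coeff.support.card = b.coeff.support.card ∧
      (∀ h : H, h ∈ a'.coeff.support ↔ (h : G) ∈ a.coeff.support) ∧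
      (∀ h : H, h ∈ b'.coeff.support ↔ (h : G) ∈ b.coeff.support) := by
  classical
  have inj : Function.Injective (H.subtype) := H.subtype_injective
  have ra : mapDomain H.subtype (comapDomain H.subtype inj a) = a :=
    mapDomain_comapDomain (by simpa using hHa) inj
  have rb : mapDomain H.subtype (comapDomain H.subtype inj b) = b :=
    mapDomain_comapDomain (by simpa using hHb) inj
  refine ⟨comapDomain H.subtype inj a, comapDomain H.subtype inj b, ?_, ?_, ?_, ?_, ?_, ?_, ?_⟩
  · intro h0; rw [h0] at ra; simp at ra; exact ha ra.symm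
  · intro h0; rw [h0] at rb; simp at rb; exact hb rb.symm
  · apply mapDomain_injective (R := K) inj
    rw [mapDomain_mul, ra, rb, hab]; simp
  · conv_rhs => rw [← ra]
    simp only [mapDomain, coeff_ofCoeff]
    rw [Finsupp.mapDomain_support_of_injective inj, Finset.card_image_of_injective _ inj]
  · conv_rhs => rw [← rb]
    simp only [mapDomain, coeff_ofCoeff]
    rw [Finsupp.mapDomain_support_of_injective inj, Finset.card_image_of_injective _ inj]
  · intro h; simp
  · intro h; simp

lemma card_fib_le {H Q : Type u} [Group H] [Group Q] (φ : H →* Q) (q : Q)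
    (x : MonoidAlgebra K H) : (fib φ q x).coeff.support ⊆ x.coeff.support := by
  intro s hs
  exact ((mem_supp_fib φ q x s).1 hs).1

theorem result (K : Type v) [Field K] :
    (∀ (G : Type u) [Group G], TorsionFree G → NoZeroDivisors (MonoidAlgebra K G)) ↔
    (∀ (H : Type u) [Group H], TorsionFree H → Group.FG H → NoUPQuot H →
      NoZeroDivisors (MonoidAlgebra K H)) := by
  classical
  constructor
  · intro h H _ hH _ _
    exact h H hH
  · intro hyp G _ hG
    by_contra hnz
    have hex : ∃ n, ∃ (G : Type u) (_ : Group G), TorsionFree G ∧ ZD K G n := by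
      have : ∃ a b : MonoidAlgebra K G, a * b = 0 ∧ a ≠ 0 ∧ b ≠ 0 := by
        by_contra hcon
        apply hnz
        constructor
        intro a b hab
        by_contra hne
        push Not at hne
        exact hcon ⟨a, b, hab, hne.1, hne.2⟩
      obtain ⟨a, b, hab, ha, hb⟩ := this
      exact ⟨_, G, inferInstance, hG, a, b, ha, hb, hab, rfl⟩
    obtain ⟨G', iG', hG', hzd⟩ := Nat.find_spec hex
    have hmin : ∀ m < Nat.find hex, ¬ ∃ (G : Type u) (_ : Group G), TorsionFree G ∧ ZD K G m :=
      fun m hm => Nat.find_min hex hm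
    set n := Nat.find hex with hn
    obtain ⟨a, b, ha, hb, hab, hcard, h1a, h1b⟩ := normalize hzd
    let S : Set G' := ↑a.coeff.support ∪ ↑b.coeff.support
    let H : Subgroup G' := Subgroup.closure S
    have hHa : ↑a.coeff.support ⊆ (H : Set G') :=
      fun x hx => Subgroup.subset_closure (Or.inl hx)
    have hHb : ↑b.coeff.support ⊆ (H : Set G') :=
      fun x hx => Subgroup.subset_closure (Or.inr hx)
    obtain ⟨a', b', ha', hb', hab', ca, cb, ma, mb⟩ := restrict a b ha hb hab H hHa hHb
    have tfH : TorsionFree H := by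
      intro g hg
      have : IsOfFinOrder (g : G') := H.subtype.isOfFinOrder hg
      exact Subtype.ext (hG' _ this)
    have fgH : Group.FG H := by
      rw [Group.fg_iff_subgroup_fg]
      exact ⟨a.coeff.support ∪ b.coeff.support, by simp [H, S]⟩
    have nq : NoUPQuot H := by
      intro Q _ _ φ
      obtain ⟨q1, q2, f1, f2, f12⟩ := key φ a' b' ha' hb' hab'
      have hge : n ≤ (fib φ q1 a').coeff.support.card + (fib φ q2 b').coeff.support.card := by
        by_contra hlt
        push Not at hlt
        exact hmin _ hlt ⟨H, inferInstance, tfH, _, _, f1, f2, f12, rfl⟩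
      have l1 := Finset.card_le_card (card_fib_le φ q1 a')
      have l2 := Finset.card_le_card (card_fib_le φ q2 b')
      have e1 : (fib φ q1 a').coeff.support = a'.coeff.support :=
        Finset.eq_of_subset_of_card_le (card_fib_le φ q1 a') (by omega)
      have e2 : (fib φ q2 b').coeff.support = b'.coeff.support :=
        Finset.eq_of_subset_of_card_le (card_fib_le φ q2 b') (by omega)
      have va : ∀ s ∈ a'.coeff.support, φ s = q1 := by
        intro s hs
        rw [← e1] at hs
        exact ((mem_supp_fib φ q1 a' s).1 hs).2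
      have vb : ∀ s ∈ b'.coeff.support, φ s = q2 := by
        intro s hs
        rw [← e2] at hs
        exact ((mem_supp_fib φ q2 b' s).1 hs).2
      have hq1 : q1 = 1 := by
        have := va 1 ((ma 1).2 (by simpa using h1a))
        simpa using this.symm
      have hq2 : q2 = 1 := by
        have := vb 1 ((mb 1).2 (by simpa using h1b))
        simpa using this.symm
      have htop : Subgroup.closure (((↑) : H → G') ⁻¹' S) = ⊤ :=
        Subgroup.closure_closure_coe_preimage
      have : φ = 1 := by
        apply MonoidHom.eq_of_eqOn_dense htop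
        intro s hs
        rcases hs with hs | hs
        · have := va s ((ma s).2 hs)
          simp [this, hq1]
        · have := vb s ((mb s).2 hs)
          simp [this, hq2]
      intro h
      rw [this]; rfl
    have := hyp H tfH fgH nq
    rcases mul_eq_zero.1 hab' with h0 | h0
    · exact ha' h0
    · exact hb' h0

end Vale.Agent.Results.P201.NoUPQuotient
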